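import Mathlib.Analysis.SpecialFunctions.SmoothTransition
import Mathlib.Analysis.SpecialFunctions.Integrals.Basic
import Mathlib.MeasureTheory.Integral.IntervalIntegral.FundThmCalculus
import Mathlib.Analysis.Calculus.MeanValue
import Mathlib.Analysis.Calculus.ContDiff.Operations

/-! # P290, FIBCLASS (helper143): the cut off function

`J x = 0` for `x ≤ 1/2`, `J x = J 1 + log x` for `x ≥ 1`, `J` smooth, `(x J')' ≥ 0`.
-/

open Set Filter MeasureTheory
open scoped Topology ContDiff

noncomputable section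

namespace Vale.Agent.P290.H143

/-- smooth step from `0` (`x ≤ 1/2`) to `1` (`x ≥ 1`) -/
def Sm (x : ℝ) : ℝ := Real.smoothTransition (2 * x - 1)

theorem Sm_contDiff : ContDiff ℝ ∞ Sm :=
  Real.smoothTransition.contDiff.comp ((contDiff_const.mul contDiff_id).sub contDiff_const)

theorem Sm_of_le {x : ℝ} (hx : x ≤ 1 / 2) : Sm x = 0 :=
  Real.smoothTransition.zero_of_nonpos (by linarith)

theorem Sm_of_ge {x : ℝ} (hx : 1 ≤ x) : Sm x = 1 :=
  Real.smoothTransition.one_of_one_le (by linarith)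

theorem Sm_mono : Monotone Sm := fun x y h =>
  Real.smoothTransition.monotone (by linarith)

/-- `Sm x / x` -/
def qJ (x : ℝ) : ℝ := Sm x / x

theorem mul_qJ (x : ℝ) : x * qJ x = Sm x := by
  rcases eq_or_ne x 0 with rfl | h
  · rw [Sm_of_le (by norm_num), zero_mul]
  · rw [qJ]; field_simp

theorem qJ_contDiff : ContDiff ℝ ∞ qJ := by
  rw [contDiff_iff_contDiffAt]
  intro x
  rcases lt_or_ge x (1 / 2) with h | h
  · have : qJ =ᶠ[𝓝 x] fun _ => 0 := by
      filter_upwards [Iio_mem_nhds h] with y hy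
      rw [qJ, Sm_of_le (le_of_lt hy), zero_div]
    exact contDiffAt_const.congr_of_eventuallyEq this
  · exact Sm_contDiff.contDiffAt.div contDiffAt_id (by intro h0; change x = 0 at h0; linarith)

/-- the weight -/
def J (x : ℝ) : ℝ := ∫ y in (0 : ℝ)..x, qJ y

theorem hasDerivAt_J (x : ℝ) : HasDerivAt J (qJ x) x :=
  (qJ_contDiff.continuous.integral_hasStrictDerivAt 0 x).hasDerivAt

theorem deriv_J : deriv J = qJ := funext fun x => (hasDerivAt_J x).deriv

theorem J_contDiff : ContDiff ℝ ∞ J := by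
  rw [show (∞ : WithTop ℕ∞) = ∞ + 1 from rfl, contDiff_succ_iff_deriv]
  refine ⟨fun x => (hasDerivAt_J x).differentiableAt, fun h => absurd h WithTop.coe_ne_top, ?_⟩
  rw [deriv_J]
  exact qJ_contDiff

theorem J_of_ge {x : ℝ} (hx : 1 ≤ x) : J x = J 1 + Real.log x := by
  have h1 : J x = J 1 + ∫ y in (1 : ℝ)..x, qJ y := by
    rw [J, J, intervalIntegral.integral_add_adjacent_intervals]
    · exact qJ_contDiff.continuous.intervalIntegrable _ _
    · exact qJ_contDiff.continuous.intervalIntegrable _ _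
  have h2 : ∫ y in (1 : ℝ)..x, qJ y = ∫ y in (1 : ℝ)..x, y⁻¹ := by
    apply intervalIntegral.integral_congr
    intro y hy
    rw [uIcc_of_le hx] at hy
    show qJ y = y⁻¹
    rw [qJ, Sm_of_ge hy.1, one_div]
  rw [h1, h2, integral_inv_of_pos one_pos (by linarith), div_one]

/-- `x J''(x) + J'(x) = Sm'(x)` -/
theorem J_second (x : ℝ) : x * deriv (deriv J) x + deriv J x = deriv Sm x := by
  rw [deriv_J]
  have h1 : HasDerivAt (fun x => x * qJ x) (1 * qJ x + x * deriv qJ x) x :=
    (hasDerivAt_id x).mul (((qJ_contDiff.differentiable (by simp)) x).hasDerivAt)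
  have h2 : (fun x => x * qJ x) = Sm := funext mul_qJ
  rw [h2] at h1
  rw [h1.deriv]
  ring

theorem deriv_Sm_nonneg (x : ℝ) : 0 ≤ deriv Sm x := Sm_mono.deriv_nonneg

theorem exists_deriv_Sm_pos : ∃ x ∈ Ioo (1 / 2 : ℝ) 1, 0 < deriv Sm x := by
  obtain ⟨x, hx, h⟩ := exists_deriv_eq_slope Sm (a := 1 / 2) (b := 1) (by norm_num)
    Sm_contDiff.continuous.continuousOn
    ((Sm_contDiff.differentiable (by simp)).differentiableOn)
  refine ⟨x, hx, ?_⟩
  rw [h, Sm_of_ge le_rfl, Sm_of_le le_rfl]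
  norm_num

end Vale.Agent.P290.H143
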