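import Vale.Agent.P290.H270.Curves
import Mathlib.LinearAlgebra.LinearIndependent.Lemmas
import Mathlib.LinearAlgebra.Dimension.Finite
import Mathlib.LinearAlgebra.FreeModule.Finite.Basic
import Mathlib.LinearAlgebra.FreeModule.StrongRankCondition
import Mathlib.Algebra.EuclideanDomain.Int

/-! # P290, package FIBCLASS, abstract part (helper143)

`K : Curves H` : the curves of a compact complex surface, with their classes.  `e₀` is a primitive
class some positive multiple `k • e₀ = cls E` of which is effective and nonnegative on all curves,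
`e₀² = 0`.  Hypotheses from geometry:
* `hz` : an effective divisor of class `0` is `0`;
* `neg` : Hodge index on `e₀^⊥` (for classes of effective divisors).

Results: two different effective divisors of class `e₀` have no common curve and are orthogonal
(`first_pencil`); the members of such a pencil are connected (`conn`); a member is either one
reduced curve of class `e₀`, or all its curves have negative square (`components`);
only finitely many members are reducible (`finite_reducible`).
-/

namespace Vale.Agent.P290.H143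

open P290.H270 Finset

universe u v w

variable {H : Type u} [AddCommGroup H] (K : Curves.{u, v} H)

/-- the input for the first fibration -/
structure First where
  e₀ : H
  E : K.κ →₀ ℕ
  k : ℕ
  k_pos : 0 < k
  E_ne : E ≠ 0
  cls_E : K.cls E = k • e₀
  sq : K.B e₀ e₀ = 0
  nef : ∀ C, 0 ≤ K.B e₀ (K.cl C)
  hz : ∀ D : K.κ →₀ ℕ, K.cls D = 0 → D = 0
  neg : ∀ D : K.κ →₀ ℕ, K.B e₀ (K.cls D) = 0 → K.B (K.cls D) (K.cls D) ≤ 0 ∧
    (K.B (K.cls D) (K.cls D) = 0 → ∃ j : ℤ, K.cls D = j • e₀)

namespace First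

variable {K} (f : First K)

/-- an effective divisor of class `j • e₀`, `j ≤ 0`, vanishes -/
theorem eq_zero_of_nonpos {D : K.κ →₀ ℕ} {j : ℤ} (hj : j ≤ 0) (h : K.cls D = j • f.e₀) :
    D = 0 := by
  obtain ⟨n, rfl⟩ : ∃ n : ℕ, j = -(n : ℤ) := ⟨j.natAbs, by omega⟩
  have h1 : K.cls (f.k • D + n • f.E) = 0 := by
    rw [K.cls_add, K.cls_nsmul, K.cls_nsmul, h, f.cls_E, neg_smul, natCast_zsmul, smul_neg,
      smul_smul, smul_smul, mul_comm, neg_add_cancel]
  have h2 := f.hz _ h1
  have h3 : f.k • D = 0 := by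
    ext C
    have := DFunLike.congr_fun h2 C
    simp only [Finsupp.add_apply, Finsupp.smul_apply, smul_eq_mul, Finsupp.coe_zero,
      Pi.zero_apply] at this ⊢
    omega
  ext C
  have := DFunLike.congr_fun h3 C
  have hk := f.k_pos
  simp only [Finsupp.smul_apply, smul_eq_mul, Finsupp.coe_zero, Pi.zero_apply, mul_eq_zero] at this ⊢
  omega

/-- if `D + D' ` has class `e₀` and `D ≠ 0` has class `j • e₀` then `D' = 0` -/
theorem right_eq_zero {D D' : K.κ →₀ ℕ} {j : ℤ} (hD : D ≠ 0) (h : K.cls D = j • f.e₀)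
    (hs : K.cls D + K.cls D' = f.e₀) : D' = 0 := by
  have hj : 0 < j := by
    by_contra hj
    exact hD (f.eq_zero_of_nonpos (not_lt.1 hj) h)
  refine f.eq_zero_of_nonpos (j := 1 - j) (by omega) ?_
  have h2 : K.cls D' = f.e₀ - j • f.e₀ := by
    rw [← h, ← hs, add_sub_cancel_left]
  rw [sub_smul, one_smul, h2]

theorem nonneg_cls (D : K.κ →₀ ℕ) : 0 ≤ K.B f.e₀ (K.cls D) :=
  K.nonneg_of_forall _ _ fun C _ => f.nef C

/-- the parts of a divisor of class `e₀` have degree zero -/
theorem deg_left {D D' : K.κ →₀ ℕ} (hs : K.cls D + K.cls D' = f.e₀) :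
    K.B f.e₀ (K.cls D) = 0 := by
  have h1 := f.nonneg_cls D
  have h2 := f.nonneg_cls D'
  have h3 : K.B f.e₀ (K.cls D) + K.B f.e₀ (K.cls D') = 0 := by
    rw [← map_add, hs, f.sq]
  omega

/-- a part of a divisor of class `e₀` of nonnegative square is everything or nothing -/
theorem left_or_right {D D' : K.κ →₀ ℕ} (hs : K.cls D + K.cls D' = f.e₀)
    (h0 : 0 ≤ K.B (K.cls D) (K.cls D)) : D = 0 ∨ D' = 0 := by
  by_cases hD : D = 0
  · exact Or.inl hD
  · obtain ⟨h1, h2⟩ := f.neg D (f.deg_left hs)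
    obtain ⟨j, hj⟩ := h2 (le_antisymm h1 h0)
    exact Or.inr (f.right_eq_zero hD hj hs)

/-- **The first pencil**: two different effective divisors of class `e₀` have no common curve, and
all their curves are orthogonal. -/
theorem first_pencil {D₁ D₂ : K.κ →₀ ℕ} (hne : D₁ ≠ D₂) (h1 : K.cls D₁ = f.e₀)
    (h2 : K.cls D₂ = f.e₀) :
    ∀ C ∈ D₁.support, ∀ C' ∈ D₂.support, C ≠ C' ∧ K.B (K.cl C) (K.cl C') = 0 := by
  obtain ⟨G, M, N, hM, hN, hMN⟩ := K.exists_gcd D₁ D₂
  have hMc : K.cls M = K.cls N := by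
    have : K.cls M + K.cls G = K.cls N + K.cls G := by
      rw [← K.cls_add, ← K.cls_add, ← hM, ← hN, h1, h2]
    exact add_right_cancel this
  have hMnn : ∀ C, 0 ≤ K.B (K.cls M) (K.cl C) := K.moving_nonneg hMN hMc
  have hMM : 0 ≤ K.B (K.cls M) (K.cls M) := K.nonneg_of_forall _ _ fun C _ => hMnn C
  have hsM : K.cls M + K.cls G = f.e₀ := by rw [← K.cls_add, ← hM, h1]
  have hM0 : M ≠ 0 := by
    intro hM0
    have : N = 0 := f.hz N (by rw [← hMc, hM0, K.cls_zero])
    exact hne (by rw [hM, hN, hM0, this])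
  have hG : G = 0 := (f.left_or_right hsM hMM).resolve_left hM0
  have hM1 : K.cls M = f.e₀ := by rw [← hsM, hG, K.cls_zero, add_zero]
  have hN1 : K.cls N = f.e₀ := by rw [← hMc, hM1]
  rw [hG, add_zero] at hM hN
  subst hM hN
  intro C hC C' hC'
  have hCC' : C ≠ C' := by
    rintro rfl
    rcases hMN C with h | h
    · exact (Finsupp.mem_support_iff.1 hC) h
    · exact (Finsupp.mem_support_iff.1 hC') h
  refine ⟨hCC', ?_⟩
  -- first `B e₀ (cl C) = 0`, then `B (cls N) (cl C) = 0`
  have h3 : K.B f.e₀ (K.cl C) = 0 := by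
    have h4 : K.B f.e₀ (K.cls D₁) = 0 := by rw [h1, f.sq]
    exact K.eq_zero_of_forall _ _ (fun C _ => f.nef C) h4 C hC
  have h5 : K.B (K.cl C) (K.cls D₂) = 0 := by rw [K.symm, h2, h3]
  refine K.eq_zero_of_forall _ D₂ (fun C'' hC'' => ?_) h5 C' hC'
  apply K.nonneg
  rintro rfl
  rcases hMN C with h | h
  · exact (Finsupp.mem_support_iff.1 hC) h
  · exact (Finsupp.mem_support_iff.1 hC'') h

open scoped Classical in
/-- a divisor of class `e₀` is connected -/
theorem conn {F : K.κ →₀ ℕ} (hF : K.cls F = f.e₀) (T : Set K.κ)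
    (h0 : ∃ C ∈ F.support, C ∈ T)
    (h1 : ∀ C ∈ F.support, C ∈ T → ∀ C' ∈ F.support, C' ≠ C →
      0 < K.B (K.cl C) (K.cl C') → C' ∈ T) :
    ∀ C ∈ F.support, C ∈ T := by
  set D := F.filter (· ∈ T) with hD
  set D' := F.filter (¬ · ∈ T) with hD'
  have hsum : D + D' = F := Finsupp.filter_add_filter_not F (· ∈ T)
  have hs : K.cls D + K.cls D' = f.e₀ := by rw [← K.cls_add, hsum, hF]
  have hB : K.B (K.cls D) (K.cls D') = 0 := by
    have hsub : ∀ p : K.κ → Prop, ∀ [DecidablePred p], (F.filter p).support ⊆ F.support := by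
      intro p _
      rw [Finsupp.support_filter]
      exact Finset.filter_subset _ _
    rw [K.B_cls_cls D D' (T := F.support) (hsub _) (hsub _)]
    refine Finset.sum_eq_zero fun C hC => Finset.sum_eq_zero fun C' hC' => ?_
    by_cases hCT : C ∈ T
    · by_cases hC'T : C' ∈ T
      · have : D' C' = 0 := by rw [hD', Finsupp.filter_apply_neg]; simpa using hC'T
        rw [this]; simp
      · have hne : C' ≠ C := by rintro rfl; exact hC'T hCT
        have h2 : ¬ 0 < K.B (K.cl C) (K.cl C') := fun h => hC'T (h1 C hC hCT C' hC' hne h)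
        have h3 := K.nonneg C C' hne.symm
        have : K.B (K.cl C) (K.cl C') = 0 := by omega
        rw [this, mul_zero]
    · have : D C = 0 := by rw [hD, Finsupp.filter_apply_neg]; exact hCT
      rw [this]; simp
  have hDD : 0 ≤ K.B (K.cls D) (K.cls D) := by
    have h2 : K.B (K.cls D) (K.cls D + K.cls D') = 0 := by
      rw [hs, K.symm, f.deg_left hs]
    rw [map_add, hB, add_zero] at h2
    exact h2.ge
  obtain ⟨C₀, hC₀, hC₀T⟩ := h0
  have hD0 : D ≠ 0 := by
    intro h
    have h2 := DFunLike.congr_fun h C₀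
    rw [hD, Finsupp.filter_apply_pos _ _ hC₀T] at h2
    exact (Finsupp.mem_support_iff.1 hC₀) h2
  have hD'0 := (f.left_or_right hs hDD).resolve_left hD0
  intro C hC
  by_contra hCT
  have h2 := DFunLike.congr_fun hD'0 C
  rw [hD', Finsupp.filter_apply_pos (fun x => ¬ x ∈ T) _ hCT] at h2
  exact (Finsupp.mem_support_iff.1 hC) h2

/-- **Components**: a divisor of class `e₀` is one reduced curve of class `e₀` (and square `0`), or
all its curves have negative square. -/
theorem components {F : K.κ →₀ ℕ} (hF : K.cls F = f.e₀) :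
    (∃ C, F = Finsupp.single C 1 ∧ K.cl C = f.e₀) ∨
      ∀ C ∈ F.support, K.B (K.cl C) (K.cl C) < 0 := by
  by_cases h : ∀ C ∈ F.support, K.B (K.cl C) (K.cl C) < 0
  · exact Or.inr h
  · left
    push Not at h
    obtain ⟨C, hC, hCC⟩ := h
    refine ⟨C, ?_⟩
    have hcl : K.cls (Finsupp.single C 1) = K.cl C := by simp [Curves.cls]
    have hle : Finsupp.single C 1 ≤ F := by
      intro C'
      rcases eq_or_ne C' C with rfl | h
      · rw [Finsupp.single_eq_same]
        exact Nat.one_le_iff_ne_zero.2 (Finsupp.mem_support_iff.1 hC)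
      · rw [Finsupp.single_eq_of_ne h]; exact Nat.zero_le _
    have hsum : Finsupp.single C 1 + (F - Finsupp.single C 1) = F := add_tsub_cancel_of_le hle
    have hs : K.cls (Finsupp.single C 1) + K.cls (F - Finsupp.single C 1) = f.e₀ := by
      rw [← K.cls_add, hsum, hF]
    have h0 := (f.left_or_right hs (by rw [hcl]; exact hCC)).resolve_left (by
      intro h
      have := DFunLike.congr_fun h C
      simp at this)
    have hFC : F = Finsupp.single C 1 := by rw [← hsum, h0, add_zero]
    exact ⟨hFC, by rw [← hF, hFC, hcl]⟩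

/-- with evenness and `C² ≥ -2`: all curves of a reducible (or nonreduced) member have square
`-2` -/
theorem components_two (hself : ∀ C, -2 ≤ K.B (K.cl C) (K.cl C))
    (heven : ∀ C, 2 ∣ K.B (K.cl C) (K.cl C)) {F : K.κ →₀ ℕ} (hF : K.cls F = f.e₀) :
    (∃ C, F = Finsupp.single C 1 ∧ K.cl C = f.e₀) ∨
      ∀ C ∈ F.support, K.B (K.cl C) (K.cl C) = -2 := by
  rcases f.components hF with h | h
  · exact Or.inl h
  · right
    intro C hC
    have h1 := h C hC
    have h2 := hself C
    obtain ⟨n, hn⟩ := heven C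
    omega

/-- a class of nonnegative self pairing `0` and the zero divisor: a member is not zero -/
theorem member_ne_zero (h0 : f.e₀ ≠ 0) {F : K.κ →₀ ℕ} (hF : K.cls F = f.e₀) : F ≠ 0 := by
  rintro rfl
  exact h0 (by rw [← hF, K.cls_zero])

/-- `e₀ ≠ 0` -/
theorem e₀_ne_zero : f.e₀ ≠ 0 := by
  intro h
  exact f.E_ne (f.hz _ (by rw [f.cls_E, h, smul_zero]))

/-- **The fibration of a pencil.** `F s`, `s : S`, the members of the pencil, pairwise different;
`cov` : every curve of degree zero lies in a member. -/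
def toFib {S : Type w} (F : S → K.κ →₀ ℕ) (hF : ∀ s, K.cls (F s) = f.e₀)
    (hinj : Function.Injective F) (hS : ∀ s : S, ∃ t, t ≠ s)
    (cov : ∀ C, K.B f.e₀ (K.cl C) = 0 → ∃ s, C ∈ (F s).support) : Fib.{u, v, w} K where
  e := f.e₀
  S := S
  F := F
  cls_F := hF
  nonneg_e := f.nef
  vert C := by
    refine ⟨cov C, ?_⟩
    rintro ⟨s, hs⟩
    obtain ⟨t, ht⟩ := hS s
    rw [← hF t, K.B_cls (F t) (Finset.Subset.refl _)]
    refine Finset.sum_eq_zero fun C' hC' => ?_
    rw [(f.first_pencil (fun h => ht (hinj h)) (hF t) (hF s) C' hC' C hs).2, mul_zero]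
  ne s := f.member_ne_zero f.e₀_ne_zero (hF s)
  disj s t hst := f.first_pencil (fun h => hst (hinj h)) (hF s) (hF t)

/-- its fibres are connected -/
theorem toFib_conn {S : Type w} (F : S → K.κ →₀ ℕ) (hF : ∀ s, K.cls (F s) = f.e₀)
    (hinj : Function.Injective F) (hS : ∀ s : S, ∃ t, t ≠ s)
    (cov : ∀ C, K.B f.e₀ (K.cl C) = 0 → ∃ s, C ∈ (F s).support) :
    (f.toFib F hF hinj hS cov).Conn := fun s T h0 h1 => f.conn (hF s) T h0 h1

end First

/-- **Finiteness**: in a finitely generated group, a family of pairwise orthogonal vectors with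
nonzero squares is finite. -/
theorem finite_orthogonal {H : Type u} [AddCommGroup H] [Module.Finite ℤ H]
    (B : H →+ H →+ ℤ) {ι : Type v} (x : ι → H) (h0 : ∀ i, B (x i) (x i) ≠ 0)
    (h1 : ∀ i j, i ≠ j → B (x i) (x j) = 0) : Finite ι := by
  have hli : LinearIndependent ℤ x := by
    rw [linearIndependent_iff']
    intro s g hg i hi
    have h2 : B (∑ j ∈ s, g j • x j) (x i) = 0 := by rw [hg, map_zero]; rfl
    rw [map_sum, AddMonoidHom.finsetSum_apply, Finset.sum_eq_single i] at h2
    · rw [map_zsmul, AddMonoidHom.zsmul_apply, smul_eq_mul, mul_eq_zero] at h2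
      exact h2.resolve_right (h0 i)
    · intro j _ hj
      rw [map_zsmul, AddMonoidHom.zsmul_apply, h1 j i hj, smul_zero]
    · intro h; exact absurd hi h
  exact hli.finite

/-- only finitely many members of a pencil of class `e₀` are reducible or nonreduced -/
theorem First.finite_reducible [Module.Finite ℤ H] {K : Curves.{u, v} H} (f : First K)
    {S : Type w} (F : S → K.κ →₀ ℕ) (hF : ∀ s, K.cls (F s) = f.e₀) (hinj : Function.Injective F) :
    {s | ∃ C ∈ (F s).support, K.B (K.cl C) (K.cl C) ≠ 0}.Finite := by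
  rw [← Set.finite_coe_iff]
  choose c hc hc' using fun s : {s | ∃ C ∈ (F s).support, K.B (K.cl C) (K.cl C) ≠ 0} => s.2
  refine finite_orthogonal K.B (fun s => K.cl (c s)) hc' fun s t hst => ?_
  exact (f.first_pencil (fun h => hst (Subtype.ext (hinj h))) (hF s) (hF t) _ (hc s) _ (hc t)).2

end Vale.Agent.P290.H143
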